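import Crest.Agent.R189.C.Amb
import Crest.Agent.R189.C.Central
import Crest.Agent.R189.B1.Main
import Crest.Agent.R189.BR

/-!
# Row 189, block B3 (owner helper95): a finitely presented central extension of `S`
-/

set_option autoImplicit false

noncomputable section

namespace Crest.Agent.R189

open Equiv Pointwise SFT C B1

theorem Rig.range_eq {G Y : Type*} [AddCommGroup G] [AddAction G Y] [TopologicalSpace Y] [CompactSpace Y] {n : ℕ}
    {Γ : Type*} [Group Γ] (R : Rig G Y n Γ) : R.π.range = SG G Y n := by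
  have hP : ∀ U c, IsClopen U → c.IsThreeCycle → R.π (R.φ U c) = P U c := fun U c hU hc => by
    ext1 ⟨x, i⟩
    by_cases h : x ∈ U
    · rw [R.π_in U c hU hc x h, P_in c h]
    · rw [R.π_out U c hU hc x h, P_out c h]
  apply le_antisymm
  · rw [MonoidHom.range_eq_map, ← R.gen, MonoidHom.map_closure, Subgroup.closure_le]
    rintro _ ⟨_, ⟨v, hv, rfl⟩ | ⟨U, c, hU, hc, rfl⟩, rfl⟩
    · exact Subgroup.subset_closure (Or.inr ⟨v, hv, R.π_τ v hv⟩)
    · rw [hP U c hU hc]
      exact Subgroup.subset_closure (Or.inl (phi_indicator_mem_Mset hU hc.mem_alternatingGroup))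
  · rw [SG, Subgroup.closure_le]
    rintro _ (⟨f, hf, hf', rfl⟩ | ⟨v, hv, rfl⟩)
    · have := clopen_induction (P := fun U : Set Y => phi (U.mulIndicator f) ∈ R.π.range)
        isClopen_univ (by simp [phi_one, show (fun _ : Y => (1 : Perm (Fin n))) = 1 from rfl])
        (fun U V _ _ hd _ hU hV => ?_) fun x _ => ?_
      · simpa using this
      · rw [show (U ∪ V).mulIndicator f = U.mulIndicator f * V.mulIndicator f from
          Set.mulIndicator_union_of_disjoint hd f, phi_mul]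
        exact mul_mem hU hV
      · refine ⟨{y | f y = f x}, hf.isClopen_fiber _, rfl, fun U hU hUW _ => ?_⟩
        rw [Set.mulIndicator_congr (g := fun _ => f x) fun y hy => hUW hy]
        have h := hf' x
        rw [← Perm.closure_three_cycles_eq_alternating] at h
        refine Subgroup.closure_induction (p := fun σ _ => P U σ ∈ R.π.range) (fun c hc => ⟨_, hP U c hU hc⟩)
          (by rw [P_one]; exact one_mem _) (fun _ _ _ _ a b => by rw [P_mul]; exact mul_mem a b)
          (fun _ _ a => by rw [P_inv]; exact inv_mem a) h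
    · exact ⟨_, R.π_τ v hv⟩

namespace Dat

variable {X : SFT} {r : ℕ} {Γ : Type} [Group Γ] (Δ : Dat X r Γ) {U W : Set X.Pt}

theorem cE_inter (hU : Det r U) (hW : Det r W) : Δ.cE (U ∩ W) = Δ.cE U ⊓ Δ.cE W :=
  ((Δ.cE_cp hU hW).inf_eq (Δ.cE_le (hU.inter hW) hU Set.inter_subset_left)
    (Δ.cE_le (hU.inter hW) hW Set.inter_subset_right) fun _ h1 h2 =>
      Cond.le_of_split (Δ.cE_le (hU.inter hW) hW Set.inter_subset_right)
        (Δ.cE_orth (hU.inter hW.compl) hW (disjoint_compl_left.mono_left Set.inter_subset_right))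
        (fun c hc => by
          rw [Δ.cE_val hU hc, Δ.cE_val (hU.inter hW) hc, Δ.cE_val (hU.inter hW.compl) hc,
            Δ.e_split hU hW hc.mem_alternatingGroup]) h2 h1).symm

theorem cE_univ : Δ.cE Set.univ = ⊤ := Cond.ext' fun c hc => by
  rw [Δ.cE_val (det_univ r) hc, Cond.top_val' hc]; rfl

theorem eq_bot_of_le_cE {ι : Type} (s : Finset ι) (f : ι → Set X.Pt) (h : ∀ i ∈ s, Det r (f i)) {z : Cond Δ.amb}
    (hz : ∀ i ∈ s, z ≤ Δ.cE (f i)) (h0 : ⋂ i ∈ s, f i = ∅) : z = ⊥ := by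
  classical
  have : Det r (⋂ i ∈ s, f i) ∧ z ≤ Δ.cE (⋂ i ∈ s, f i) := by
    clear h0
    induction s using Finset.induction_on with
    | empty => simpa using ⟨det_univ r, Δ.cE_univ ▸ le_top⟩
    | insert a s _ ih =>
      obtain ⟨a1, a2⟩ := ih (fun i hi => h i (Finset.mem_insert_of_mem hi)) fun i hi => hz i (Finset.mem_insert_of_mem hi)
      have b1 := h a (Finset.mem_insert_self _ _)
      rw [Finset.set_biInter_insert]
      exact ⟨b1.inter a1, Δ.cE_inter b1 a1 ▸ COMP.le_inf' (Δ.cE_cp b1 a1) (hz a (Finset.mem_insert_self _ _)) a2⟩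
  rw [h0, Δ.cE_empty] at this
  exact le_bot_iff.1 this.2

/-- the cell conditions -/
def cell (v : V) (a : X.A) : Cond Δ.amb := Δ.tr.sh (-v) (Δ.cE (cyl 0 a))

theorem cell_box {v : V} (hv : v ∈ box r) (a : X.A) : Δ.cell v a = Δ.cE (cyl v a) := by
  have e : -v +ᵥ cyl (0 : V) a = cyl v a := by rw [vadd_cyl]; simp
  rw [cell, Δ.sh_cE (neg_mem_box hv) (det_cyl (zero_mem_box r) a) (e ▸ det_cyl hv a), e]

theorem sh_cell (w v : V) (a : X.A) : Δ.tr.sh w (Δ.cell v a) = Δ.cell (v - w) a := by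
  rw [cell, cell, ← Δ.tr.sh_add, neg_sub, sub_eq_add_neg]

theorem cells (Δ : Dat X (2 * X.R0) Γ) : X.Cells (Cond Δ.amb) Δ.cell where
  orth v a b h := by
    rw [cell, cell, ← Δ.tr.sh_compl']
    exact Δ.tr.sh_mono _ (Cond.le_compl_iff.2 (Δ.cE_orth (det_cyl (zero_mem_box _) a) (det_cyl (zero_mem_box _) b)
      (Set.disjoint_left.2 fun x h1 h2 => h (h1.symm.trans h2))))
  cover v z h := by
    have : (Δ.tr.sh v z)ᶜ = ⊥ := Δ.eq_bot_of_le_cE Finset.univ (fun a => (cyl 0 a)ᶜ)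
      (fun a _ => (det_cyl (zero_mem_box _) a).compl) (fun a _ => by
        rw [Δ.cE_compl (det_cyl (zero_mem_box _) a), ← Δ.cell_box (zero_mem_box _), ← sub_self v, ← Δ.sh_cell]
        exact COMP.compl_anti (Δ.tr.sh_mono v (h a))) (by ext x; simp [cyl])
    rw [← Δ.tr.sh_neg_sh v z, ← COMP.compl_compl' (Δ.tr.sh v z), this, COMP.compl_bot', Δ.tr.sh_top']
  near v w a b h := by
    have := Δ.tr.sh_cp' (-v) (Cond.cp_def.2 (Δ.cE_cp (det_cyl (zero_mem_box _) a) (det_cyl h b)))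
    rw [← Δ.cell_box h, Δ.sh_cell, sub_neg_eq_add, sub_add_cancel] at this
    exact this
  rule v p hp z h := by
    have hb : box X.R0 ⊆ box (2 * X.R0) := box_mono (by omega)
    have : Δ.tr.sh v z = ⊥ := Δ.eq_bot_of_le_cE (box X.R0) (fun u => cyl u (p u))
      (fun u hu => det_cyl (hb hu) _) (fun u hu => by
        rw [← Δ.cell_box (hb hu), ← add_sub_cancel_right u v, ← Δ.sh_cell, add_sub_cancel_right]
        exact Δ.tr.sh_mono v (h u hu))
      (Set.eq_empty_of_forall_notMem fun x hx => hp ⟨x.1, x.2, fun u hu => Set.mem_iInter₂.1 hx u hu⟩)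
    rw [← Δ.tr.sh_neg_sh v z, this, Δ.tr.sh_bot]

theorem exists_rig (Δ : Dat X (2 * X.R0) Γ) (hX : X.Rigid) : Nonempty (Rig V X.Pt 12 Γ) := by
  obtain ⟨Φ, h1, h0, hn, hi⟩ := s_BR X _ _ Δ.cells (hX _ _ Δ.cells)
  have hE : ∀ U, Det (2 * X.R0) U → Φ U = Δ.cE U := fun U hU =>
    det_induction (p := fun U => Φ U = Δ.cE U) (h0.trans Δ.cE_empty.symm)
      (fun u hu a => (h1 u a).trans (Δ.cell_box hu a))
      (fun U hU h => by rw [hn U hU.clopen, h, Δ.cE_compl hU]; rfl)
      (fun U W hU hW a b => by rw [(hi U W hU.clopen hW.clopen).2, a, b, Δ.cE_inter hU hW]) hU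
  have hT : Φ Set.univ = ⊤ := (hE _ (det_univ _)).trans Δ.cE_univ
  have hs : ∀ (v : V) U, IsClopen U → Φ (v +ᵥ U) = Δ.tr.sh v (Φ U) := fun v U hU =>
    clopen_gen (p := fun U => Φ (v +ᵥ U) = Δ.tr.sh v (Φ U)) (by rw [Set.vadd_set_empty, h0, Δ.tr.sh_bot])
      (fun u a => by rw [vadd_cyl, h1, h1, Δ.sh_cell])
      (fun U hU h => by rw [Set.vadd_set_compl, hn _ (Rig.clopen_vadd hU v), hn _ hU, h, Δ.tr.sh_compl'])
      (fun U W hU hW a b => by
        rw [Set.vadd_set_inter, (hi _ _ (Rig.clopen_vadd hU v) (Rig.clopen_vadd hW v)).2, (hi _ _ hU hW).2,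
          Δ.tr.sh_inf v (hi _ _ hU hW).1, a, b]) hU
  have hπ : ∀ U, IsClopen U → ∀ c : Perm Lv, c.IsThreeCycle → Δ.π ((Φ U).val c) = P U c := fun U hU =>
    clopen_gen (p := fun U => ∀ c : Perm Lv, c.IsThreeCycle → Δ.π ((Φ U).val c) = P U c)
      (fun c _ => by
        rw [h0, Cond.bot_val, map_one]
        ext1 ⟨x, i⟩
        rw [P_out c (Set.notMem_empty x)]; rfl)
      (fun u a c hc => by
        obtain ⟨t0, ht⟩ := tc_spec hc (-u)
        rw [h1, cell, Δ.tr.sh_val _ _ hc t0 ht, Δ.cE_val (det_cyl (zero_mem_box _) a) hc, map_mul, map_mul, map_inv,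
          Δ.π_e (det_cyl (zero_mem_box _) a) hc.mem_alternatingGroup]
        show Δ.π (Δ.τ _) * _ * (Δ.π (Δ.τ _))⁻¹ = _
        rw [Δ.π_τ _ t0, lev_P ht, vadd_cyl, zero_sub, neg_neg])
      (fun U hU h c hc => by
        rw [hn U hU, Cond.compl_val' _ hc, map_mul, map_inv, h c hc, mul_inv_eq_iff_eq_mul,
          ← P_add disjoint_compl_left, Set.compl_union_self]
        exact Δ.π_e (det_univ _) hc.mem_alternatingGroup)
      (fun U W hU hW hu hw t ht => by
        obtain ⟨k, a, c, ka, kc, ac, rfl⟩ := exists_cy ht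
        obtain ⟨b, d, hb, hd, bd⟩ := exists_fresh2 ({k, a, c} : Finset Lv)
          (lt_of_le_of_lt (Nat.add_le_add_right Finset.card_le_three 1) (by norm_num))
        simp only [Finset.mem_insert, Finset.mem_singleton, not_or] at hb hd
        rw [(hi U W hU hW).2, Cond.inf_def, Cond.Cp.inf_cy (hi U W hU hW).1 ka (Ne.symm hb.1) kc (Ne.symm hd.1)
          (Ne.symm hb.2.1) ac (Ne.symm hd.2.1) hb.2.2 bd (Ne.symm hd.2.2), map_commutatorElement,
          hu _ (cy_three ka (Ne.symm hb.1) (Ne.symm hb.2.1)), hw _ (cy_three kc (Ne.symm hd.1) (Ne.symm hd.2.2)),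
          P_comm, cy_comm ka (Ne.symm hb.1) kc (Ne.symm hd.1) (Ne.symm hb.2.1) ac (Ne.symm hd.2.1) hb.2.2 bd
            (Ne.symm hd.2.2)]) hU
  have hle : ∀ U W, IsClopen U → IsClopen W → U ⊆ W → Φ U ≤ Φ W := fun U W hU hW h => by
    rw [← Set.inter_eq_left.2 h, (hi U W hU hW).2]; exact COMP.inf_le_r (hi U W hU hW).1
  have ho : ∀ U W, IsClopen U → IsClopen W → Disjoint U W → Φ U ≤ (Φ W)ᶜ := fun U W hU hW h =>
    hn W hW ▸ hle U Wᶜ hU hW.compl h.subset_compl_right
  refine ⟨{ π := Δ.π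
            τ := Δ.τ
            φ := fun U c => (Φ U).val c
            τ_add := fun v w _ _ => Δ.τ_add v w
            π_τ := Δ.π_τ
            π_in := fun U c hU hc x hx i => by rw [hπ U hU c hc, P_in c hx]
            π_out := fun U c hU hc x hx i => by rw [hπ U hU c hc, P_out c hx]
            add := fun U W c hU hW h hc => ?_
            orth := fun U W c d hU hW h hc hd => Cond.le_compl_iff.1 (ho U W hU hW h) c d hc hd
            conj := fun U W c d hU hW h hc hd => Cond.acts_of_le (hle U W hU hW h) hd c hc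
            inv := fun U c _ hc => (Φ U).is.pre.inv c hc
            trans := fun U c t v hU hc ht h => by rw [hs v U hU, Δ.tr.sh_val v _ hc ht h]; rfl
            perm := fun c t hc ht => by simp only [hT, Cond.top_val' hc]; exact Δ.tr.perm c t hc ht
            gen := ?_ }⟩
  · rw [← Cond.sup_val (ho U W hU hW h) hc, COMP.sup_eq, ← hn U hU, ← hn W hW, ← (hi _ _ hU.compl hW.compl).2,
      ← hn _ (hU.compl.inter hW.compl), ← Set.compl_union, compl_compl]
  · rw [eq_top_iff, ← Δ.gen, Subgroup.closure_le]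
    rintro _ (hg | ⟨U, ⟨c, hc⟩, hU, rfl⟩)
    · exact Subgroup.subset_closure (Or.inl hg)
    · rw [← Δ.e_of U hc]
      have h := hc
      rw [← Perm.closure_three_cycles_eq_alternating] at h
      refine Subgroup.closure_induction (p := fun σ _ => Δ.e U σ ∈ _)
        (fun c hc => Subgroup.subset_closure (Or.inr ⟨U, c, hU.clopen, hc, by rw [hE U hU, Δ.cE_val hU hc]⟩))
        (by rw [Δ.e_of U (one_mem _)]; exact (map_one (Δ.E U)).symm ▸ one_mem _) (fun _ _ a b ha hb => ?_)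
        (fun _ a ha => ?_) h
      · rw [Perm.closure_three_cycles_eq_alternating] at a b
        rw [Δ.e_mul U a b]; exact mul_mem ha hb
      · rw [Perm.closure_three_cycles_eq_alternating] at a
        rw [Δ.e_inv U a]; exact inv_mem ha

end Dat

/-- **B3** -/
theorem s_B3 : S_B3 := by
  intro X hX
  obtain ⟨Γ, _, hfp, ⟨Δ⟩⟩ := exists_dat X (2 * X.R0)
  obtain ⟨R⟩ := Δ.exists_rig hX.rigid
  have := hX.H.isCancelVAdd
  have hr := R.range_eq
  refine ⟨Γ, inferInstance, R.π.codRestrict _ fun g => hr.le ⟨g, rfl⟩, hfp, fun ⟨s, hs⟩ => ?_, ?_⟩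
  · obtain ⟨g, rfl⟩ := hr.ge hs
    exact ⟨g, rfl⟩
  · rw [MonoidHom.ker_codRestrict]
    exact R.ker_le_center (by norm_num)

end Crest.Agent.R189

end
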